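import Vale.Agent.P141.H115.Large
import Vale.Agent.P141.Defs

/-!
# The part `|t| > s` of the trilinear Hilbert transform, pointwise

Hoelder in `t`: `|T_{s,R}(f₁,f₂,f₃)(x)| ≤ 4 r s^(-1/r) ∏ |f_i|_{p_i}` for every Hoelder tuple with
`p_i ≥ 3`.
-/

namespace Vale.Agent.P141.R2.H864

open MeasureTheory Set Filter Vale.Agent.P141.H97
open Vale.Agent.P141 (IsHolderTuple)
open scoped ENNReal

theorem even_le {G : ℝ → ℝ≥0∞} (hG : Measurable G) :
    ∫⁻ t : ℝ, G |t| ≤ 2 * ∫⁻ t in Ioi (0 : ℝ), G t := by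
  have h0 : ∀ᵐ t : ℝ, t ≠ 0 := by
    have : ∀ᵐ t : ℝ, t ∉ ({0} : Set ℝ) :=
      measure_eq_zero_iff_ae_notMem.1 ((finite_singleton (0 : ℝ)).measure_zero _)
    exact this.mono fun t ht h => ht (by simp [h])
  have h1 : ∫⁻ t : ℝ, G |t| ≤
      ∫⁻ t : ℝ, ((Ioi (0 : ℝ)).indicator G t + (Ioi (0 : ℝ)).indicator G (-t)) := by
    refine lintegral_mono_ae (h0.mono fun t ht => ?_)
    rcases lt_or_gt_of_ne ht with h | h
    · rw [abs_of_neg h, indicator_of_notMem (by simp [h.le] : t ∉ Ioi (0 : ℝ)),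
        indicator_of_mem (by simpa using h : -t ∈ Ioi (0 : ℝ)), zero_add]
    · rw [abs_of_pos h, indicator_of_mem (by simpa using h : t ∈ Ioi (0 : ℝ)),
        indicator_of_notMem (by simp [h.le] : -t ∉ Ioi (0 : ℝ)), add_zero]
  refine h1.trans (le_of_eq ?_)
  have hm : Measurable ((Ioi (0 : ℝ)).indicator G) := hG.indicator measurableSet_Ioi
  rw [lintegral_add_left hm, lintegral_neg_eq_self ((Ioi (0 : ℝ)).indicator G),
    lintegral_indicator measurableSet_Ioi, two_mul]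

theorem qmp_aff {κ : ℝ} (hκ : κ ≠ 0) (c : ℝ) :
    Measure.QuasiMeasurePreserving (fun t : ℝ => κ * t + c) volume volume := by
  have h1 : Measure.QuasiMeasurePreserving (fun t : ℝ => κ * t) volume volume :=
    ⟨measurable_const_mul κ, by
      rw [Real.map_volume_mul_left hκ]; exact Measure.smul_absolutelyContinuous⟩
  exact (measurePreserving_add_right volume c).quasiMeasurePreserving.comp h1

theorem aff_le {κ : ℝ} (hκ : 1 ≤ |κ|) (c : ℝ) (g : ℝ → ℂ) {p : ℝ≥0∞} (hp : p ≠ 0) :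
    eLpNorm (fun t => g (κ * t + c)) p volume ≤ eLpNorm g p volume := by
  have hκ0 : κ ≠ 0 := by
    rintro rfl
    norm_num at hκ
  by_cases ht : p = ∞
  · subst ht
    rw [eLpNorm_exponent_top, eLpNorm_exponent_top]
    exact eLpNormEssSup_le_of_ae_enorm_bound
      ((qmp_aff hκ0 c).ae (enorm_ae_le_eLpNormEssSup g volume))
  · rw [Vale.Agent.P141.H115.elp_aff hκ0 g hp ht]
    refine (mul_le_mul_left (?_ : _ ≤ (1 : ℝ≥0∞)) _).trans (one_mul _).le
    rw [← ENNReal.ofReal_one]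
    apply ENNReal.ofReal_le_ofReal
    exact Real.rpow_le_one (by positivity) (inv_le_one_of_one_le₀ hκ) (by positivity)

theorem nice_fin {f : ℝ → ℂ} (h : Nice f) {p : ℝ≥0∞} (h1 : 1 ≤ p) :
    eLpNorm f p volume ≠ ∞ := by
  by_cases ht : p = ∞
  · subst ht
    obtain ⟨B, hB⟩ := h.bdd
    exact (memLp_top_of_bound h.meas.aestronglyMeasurable B (ae_of_all _ hB)).eLpNorm_ne_top
  · exact (h.memLp h1 ht).eLpNorm_ne_top

theorem tail_q {a q : ℝ} (ha : 0 < a) (hq : 1 < q) :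
    ∫⁻ s in Ioi (0 : ℝ), ENNReal.ofReal ((Ioi a).indicator (fun s => s ^ (-q)) s) =
      ENNReal.ofReal (a ^ (1 - q) * (q - 1)⁻¹) := by
  have h1 : ∀ s, ENNReal.ofReal ((Ioi a).indicator (fun s => s ^ (-q)) s)
      = (Ioi a).indicator (fun s => ENNReal.ofReal (s ^ (-q))) s := by
    intro s
    by_cases hs : s ∈ Ioi a
    · rw [indicator_of_mem hs, indicator_of_mem hs]
    · rw [indicator_of_notMem hs, indicator_of_notMem hs, ENNReal.ofReal_zero]
  simp only [h1]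
  rw [setLIntegral_indicator measurableSet_Ioi, inter_eq_left.2 (Ioi_subset_Ioi ha.le)]
  have hint : IntegrableOn (fun s : ℝ => s ^ (-q)) (Ioi a) :=
    integrableOn_Ioi_rpow_of_lt (by linarith) ha
  rw [← ofReal_integral_eq_lintegral_ofReal hint]
  · congr 1
    rw [integral_Ioi_rpow_of_lt (by linarith) ha]
    have e : (-q + 1 : ℝ) = 1 - q := by ring
    have e2 : (q - 1) ≠ 0 := by linarith
    have e3 : (1 - q) ≠ 0 := by linarith
    rw [e]
    field_simp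
    ring
  · filter_upwards [self_mem_ae_restrict measurableSet_Ioi] with s hs
    have : 0 < s := ha.trans hs
    show 0 ≤ s ^ (-q)
    positivity

theorem uu_lr {r : ℝ≥0∞} (h1 : 1 ≤ r) (hr : r ≠ ∞) {s R : ℝ} (hs : 0 < s) :
    eLpNorm (uu s R) (1 - r⁻¹)⁻¹ volume ≤
      ENNReal.ofReal (4 * r.toReal * s ^ (-(1 / r.toReal))) := by
  rcases eq_or_lt_of_le h1 with h | h
  · rw [← h]
    have e0 : ((1 : ℝ≥0∞) - 1⁻¹)⁻¹ = ∞ := by simp
    rw [e0, eLpNorm_exponent_top]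
    refine eLpNormEssSup_le_of_ae_enorm_bound (ae_of_all _ fun t => ?_)
    rw [← ofReal_norm, uu_norm]
    apply ENNReal.ofReal_le_ofReal
    rw [ENNReal.toReal_one]
    have e1 : s ^ (-(1 / 1) : ℝ) = s⁻¹ := by
      rw [← Real.rpow_neg_one]; norm_num
    rw [e1]
    unfold av
    by_cases ht : t ∈ {t : ℝ | s < |t| ∧ |t| < R}
    · rw [indicator_of_mem ht]
      have : |t|⁻¹ ≤ s⁻¹ := inv_anti₀ hs ht.1.le
      have : 0 ≤ s⁻¹ := by positivity
      linarith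
    · rw [indicator_of_notMem ht]; positivity
  · set ρ : ℝ := r.toReal with hρ
    have hρ1 : 1 < ρ := by
      have := (ENNReal.toReal_lt_toReal ENNReal.one_ne_top hr).2 h
      rwa [ENNReal.toReal_one] at this
    have hri : r⁻¹ < 1 := by
      rw [ENNReal.inv_lt_one]; exact h
    have e0 : (1 - r⁻¹)⁻¹ ≠ 0 := by
      rw [Ne, ENNReal.inv_eq_zero]
      exact (tsub_le_self.trans_lt ENNReal.one_lt_top).ne
    have e1 : (1 - r⁻¹)⁻¹ ≠ ∞ := by
      rw [Ne, ENNReal.inv_eq_top]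
      exact (tsub_pos_of_lt hri).ne'
    have e2 : ((1 - r⁻¹)⁻¹).toReal = (1 - ρ⁻¹)⁻¹ := by
      rw [ENNReal.toReal_inv, ENNReal.toReal_sub_of_le hri.le ENNReal.one_ne_top,
        ENNReal.toReal_one, ENNReal.toReal_inv]
    set q : ℝ := (1 - ρ⁻¹)⁻¹ with hq
    have hρ0 : 0 < ρ := by linarith
    have hd : 0 < 1 - ρ⁻¹ := by
      have := inv_lt_one_of_one_lt₀ hρ1
      linarith
    have hq1 : 1 < q := by
      rw [hq]; apply (one_lt_inv₀ hd).2
      have : 0 < ρ⁻¹ := by positivity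
      linarith
    have hq0 : 0 < q := by linarith
    have hqi : 1 / q = 1 - ρ⁻¹ := by rw [hq, one_div, inv_inv]
    have hqm : (q - 1)⁻¹ = ρ - 1 := by
      have : q = ρ / (ρ - 1) := by
        rw [hq]; field_simp
      rw [this]
      have h3 : ρ - 1 ≠ 0 := by linarith
      field_simp
      ring
    rw [eLpNorm_eq_lintegral_rpow_enorm_toReal e0 e1, e2]
    set G : ℝ → ℝ≥0∞ := fun τ => ENNReal.ofReal ((Ioi s).indicator (fun τ => τ ^ (-q)) τ) with hG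
    have mG : Measurable G := by
      refine ENNReal.measurable_ofReal.comp (Measurable.indicator ?_ measurableSet_Ioi)
      exact measurable_id.pow_const _
    have hpt : ∀ t : ℝ, ‖uu s R t‖ₑ ^ q ≤ G |t| := by
      intro t
      rw [← ofReal_norm, uu_norm, ENNReal.ofReal_rpow_of_nonneg (av_nonneg _ _ _) hq0.le, hG]
      apply ENNReal.ofReal_le_ofReal
      unfold av
      by_cases ht : t ∈ {t : ℝ | s < |t| ∧ |t| < R}
      · rw [indicator_of_mem ht, indicator_of_mem (show |t| ∈ Ioi s from ht.1),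
          Real.inv_rpow (abs_nonneg t), Real.rpow_neg (abs_nonneg t)]
      · rw [indicator_of_notMem ht, Real.zero_rpow hq0.ne']
        exact indicator_nonneg (fun τ hτ => Real.rpow_nonneg (hs.trans hτ).le _) _
    have hI : ∫⁻ t : ℝ, ‖uu s R t‖ₑ ^ q ≤ ENNReal.ofReal (2 * (s ^ (1 - q) * (ρ - 1))) := by
      refine (lintegral_mono hpt).trans ((even_le mG).trans (le_of_eq ?_))
      rw [hG, tail_q hs hq1, hqm, ENNReal.ofReal_mul (by norm_num : (0 : ℝ) ≤ 2)]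
      norm_num
    refine (ENNReal.rpow_le_rpow hI (by positivity : 0 ≤ 1 / q)).trans ?_
    have hX0 : 0 ≤ 2 * (ρ - 1) := by linarith
    rw [ENNReal.ofReal_rpow_of_nonneg (by have := Real.rpow_nonneg hs.le (1 - q); positivity)
      (by positivity)]
    apply ENNReal.ofReal_le_ofReal
    have hs1 : (s ^ (1 - q)) ^ (1 / q) = s ^ (-(1 / ρ)) := by
      rw [← Real.rpow_mul hs.le]
      congr 1
      have : (1 - q) * (1 / q) = 1 / q - 1 := by field_simp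
      rw [this, hqi, one_div]; ring
    have hx : ∀ X : ℝ, 0 ≤ X → X ^ (1 / q) ≤ 1 + X := by
      intro X hX
      have hθ0 : 0 ≤ 1 / q := by positivity
      have hθ1 : 1 / q ≤ 1 := by
        rw [div_le_one hq0]; exact hq1.le
      rcases le_total X 1 with hX1 | hX1
      · exact (Real.rpow_le_one hX hX1 hθ0).trans (by linarith)
      · calc X ^ (1 / q) ≤ X ^ (1 : ℝ) := Real.rpow_le_rpow_of_exponent_le hX1 hθ1
          _ = X := Real.rpow_one X
          _ ≤ _ := by linarith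
    have hsp : 0 ≤ s ^ (-(1 / ρ)) := Real.rpow_nonneg hs.le _
    calc (2 * (s ^ (1 - q) * (ρ - 1))) ^ (1 / q)
        = ((2 * (ρ - 1)) * s ^ (1 - q)) ^ (1 / q) := by congr 1; ring
      _ = (2 * (ρ - 1)) ^ (1 / q) * s ^ (-(1 / ρ)) := by
          rw [Real.mul_rpow hX0 (Real.rpow_nonneg hs.le _), hs1]
      _ ≤ (1 + 2 * (ρ - 1)) * s ^ (-(1 / ρ)) := by
          gcongr
          exact hx _ hX0
      _ ≤ 4 * ρ * s ^ (-(1 / ρ)) := by
          gcongr
          linarith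

/-- **Large `t`, pointwise** -/
theorem large_t {p₁ p₂ p₃ r : ℝ≥0∞} (h : IsHolderTuple p₁ p₂ p₃ r) (h1 : 3 ≤ p₁) (h2 : 3 ≤ p₂)
    (h3 : 3 ≤ p₃) {f₁ f₂ f₃ : ℝ → ℂ} (n₁ : Nice f₁) (n₂ : Nice f₂) (n₃ : Nice f₃) {s R : ℝ}
    (hs : 0 < s) (x : ℝ) :
    ‖TT s R 1 2 3 f₁ f₂ f₃ x‖ ≤ 4 * r.toReal * s ^ (-(1 / r.toReal)) *
      ((eLpNorm f₁ p₁ volume).toReal * (eLpNorm f₂ p₂ volume).toReal *
        (eLpNorm f₃ p₃ volume).toReal) := by
  have one3 : (1 : ℝ≥0∞) ≤ 3 := by norm_num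
  have hp₁ : p₁ ≠ 0 := (zero_lt_one.trans_le (one3.trans h1)).ne'
  have hp₂ : p₂ ≠ 0 := (zero_lt_one.trans_le (one3.trans h2)).ne'
  have hp₃ : p₃ ≠ 0 := (zero_lt_one.trans_le (one3.trans h3)).ne'
  have e₁ := nice_fin n₁ (one3.trans h1)
  have e₂ := nice_fin n₂ (one3.trans h2)
  have e₃ := nice_fin n₃ (one3.trans h3)
  have hri : r⁻¹ ≤ 1 := by
    rw [h.holder]
    calc p₁⁻¹ + p₂⁻¹ + p₃⁻¹ ≤ 3⁻¹ + 3⁻¹ + 3⁻¹ :=
          add_le_add (add_le_add (ENNReal.inv_le_inv.2 h1) (ENNReal.inv_le_inv.2 h2))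
            (ENNReal.inv_le_inv.2 h3)
      _ = 1 := by
          rw [← ENNReal.toReal_eq_toReal_iff' (by simp) (by simp)]
          rw [ENNReal.toReal_add (by simp) (by simp), ENNReal.toReal_add (by simp) (by simp)]
          norm_num
  have hr1 : 1 ≤ r := ENNReal.inv_le_one.1 hri
  have t1 : ENNReal.HolderTriple p₂ p₃ (p₂⁻¹ + p₃⁻¹)⁻¹ := ⟨by rw [inv_inv]⟩
  have t2 : ENNReal.HolderTriple p₁ (p₂⁻¹ + p₃⁻¹)⁻¹ r := ⟨by rw [inv_inv, h.holder, add_assoc]⟩
  have t3 : ENNReal.HolderTriple (1 - r⁻¹)⁻¹ r 1 :=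
    ⟨by rw [inv_inv, inv_one, tsub_add_cancel_of_le hri]⟩
  set F₁ : ℝ → ℂ := fun t => f₁ (x - 1 * t) with hF₁
  set F₂ : ℝ → ℂ := fun t => f₂ (x - 2 * t) with hF₂
  set F₃ : ℝ → ℂ := fun t => f₃ (x - 3 * t) with hF₃
  have m₁ : Measurable F₁ := n₁.meas.comp (measurable_const.sub (measurable_const_mul 1))
  have m₂ : Measurable F₂ := n₂.meas.comp (measurable_const.sub (measurable_const_mul 2))
  have m₃ : Measurable F₃ := n₃.meas.comp (measurable_const.sub (measurable_const_mul 3))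
  have hF : ∀ (j : ℝ) (g : ℝ → ℂ) {p : ℝ≥0∞}, 1 ≤ j → p ≠ 0 →
      eLpNorm (fun t => g (x - j * t)) p volume ≤ eLpNorm g p volume := by
    intro j g p hj hp
    have e : (fun t => g (x - j * t)) = fun t => g ((-j) * t + x) := by
      funext t; congr 1; ring
    rw [e]
    exact aff_le (by rw [abs_neg]; exact hj.trans (le_abs_self j)) x g hp
  have g1 : eLpNorm (F₂ • F₃) (p₂⁻¹ + p₃⁻¹)⁻¹ volume ≤
      eLpNorm f₂ p₂ volume * eLpNorm f₃ p₃ volume :=
    (eLpNorm_smul_le_mul_eLpNorm (p := p₂) (q := p₃) m₃.aestronglyMeasurable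
      m₂.aestronglyMeasurable).trans
      (mul_le_mul' (hF 2 f₂ (by norm_num) hp₂) (hF 3 f₃ (by norm_num) hp₃))
  have g2 : eLpNorm (F₁ • (F₂ • F₃)) r volume ≤
      eLpNorm f₁ p₁ volume * (eLpNorm f₂ p₂ volume * eLpNorm f₃ p₃ volume) :=
    (eLpNorm_smul_le_mul_eLpNorm (p := p₁) (q := (p₂⁻¹ + p₃⁻¹)⁻¹)
      (m₂.mul m₃).aestronglyMeasurable m₁.aestronglyMeasurable).trans
      (mul_le_mul' (hF 1 f₁ le_rfl hp₁) g1)
  have g3 : eLpNorm (uu s R • (F₁ • (F₂ • F₃))) 1 volume ≤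
      ENNReal.ofReal (4 * r.toReal * s ^ (-(1 / r.toReal))) *
        (eLpNorm f₁ p₁ volume * (eLpNorm f₂ p₂ volume * eLpNorm f₃ p₃ volume)) :=
    (eLpNorm_smul_le_mul_eLpNorm (p := (1 - r⁻¹)⁻¹) (q := r)
      (m₁.mul (m₂.mul m₃)).aestronglyMeasurable (uu_meas s R).aestronglyMeasurable).trans
      (mul_le_mul' (uu_lr hr1 h.r_lt_top.ne hs) g2)
  have g4 : ‖TT s R 1 2 3 f₁ f₂ f₃ x‖ₑ ≤
      ENNReal.ofReal (4 * r.toReal * s ^ (-(1 / r.toReal))) *
        (eLpNorm f₁ p₁ volume * (eLpNorm f₂ p₂ volume * eLpNorm f₃ p₃ volume)) := by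
    refine le_trans ?_ g3
    rw [eLpNorm_one_eq_lintegral_enorm]
    refine (enorm_integral_le_lintegral_enorm _).trans (le_of_eq ?_)
    refine lintegral_congr fun t => ?_
    show ‖ph s R 1 2 3 f₁ f₂ f₃ x t‖ₑ = ‖uu s R t * (F₁ t * (F₂ t * F₃ t))‖ₑ
    unfold ph FF
    rw [hF₁, hF₂, hF₃, mul_assoc (f₁ _)]
  have hK : 0 ≤ 4 * r.toReal * s ^ (-(1 / r.toReal)) := by
    have := Real.rpow_nonneg hs.le (-(1 / r.toReal))
    positivity
  have g5 := ENNReal.toReal_mono (ENNReal.mul_ne_top ENNReal.ofReal_ne_top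
    (ENNReal.mul_ne_top e₁ (ENNReal.mul_ne_top e₂ e₃))) g4
  rw [toReal_enorm, ENNReal.toReal_mul, ENNReal.toReal_mul, ENNReal.toReal_mul,
    ENNReal.toReal_ofReal hK] at g5
  rw [mul_assoc (eLpNorm f₁ p₁ volume).toReal]
  exact g5

end Vale.Agent.P141.R2.H864
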