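import Vale.Agent.P141.R2.H4.Half

/-!
# The form bound for monotone functions and for quadratic phases
-/

namespace Vale.Agent.P141.R2.H864

open MeasureTheory Set Filter Topology Vale.Agent.P141.H97 Vale.Agent.P141.R2.H152
open Vale.Agent.P141.R2.H4
open scoped ENNReal

variable {ε R c₁ c₂ c₃ A : ℝ}

/-! ## Quadratic phases -/

/-- a unimodular phase -/
noncomputable def ee (s : ℝ) : ℂ := Complex.exp (Complex.I * ((s : ℝ) : ℂ))

theorem ee_norm (s : ℝ) : ‖ee s‖ = 1 := by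
  unfold ee
  rw [mul_comm, Complex.norm_exp_ofReal_mul_I]

theorem ee_add (s t : ℝ) : ee (s + t) = ee s * ee t := by
  unfold ee
  rw [← Complex.exp_add]
  congr 1
  push_cast
  ring

theorem ee_meas {q : ℝ → ℝ} (hq : Measurable q) : Measurable fun x => ee (q x) := by
  unfold ee
  exact Complex.measurable_exp.comp (measurable_const.mul (Complex.measurable_ofReal.comp hq))

theorem nice_ee {f : ℝ → ℂ} (h : Nice f) {q : ℝ → ℝ} (hq : Measurable q) :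
    Nice fun y => ee (q y) * f y := by
  obtain ⟨B, hB⟩ := h.bdd
  have hm : Measurable fun y => ee (q y) * f y := (ee_meas hq).mul h.meas
  refine ⟨hm, ⟨B, fun x => ?_⟩, ?_⟩
  · rw [norm_mul, ee_norm, one_mul]; exact hB x
  · refine h.int.mono hm.aestronglyMeasurable (ae_of_all _ fun x => ?_)
    rw [norm_mul, ee_norm, one_mul]

theorem elp_ee (f : ℝ → ℂ) (q : ℝ → ℝ) (p : ℝ≥0∞) :
    eLpNorm (fun y => ee (q y) * f y) p volume = eLpNorm f p volume := by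
  refine eLpNorm_congr_norm_ae (ae_of_all _ fun x => ?_)
  rw [norm_mul, ee_norm, one_mul]

/-- **Quadratic phases cost nothing** -/
theorem phase {D : ℝ → ℂ} (h12 : c₁ ≠ c₂) (h13 : c₁ ≠ c₃) (h23 : c₂ ≠ c₃) (a b c : ℝ)
    (h : FormBd D A ε R c₁ c₂ c₃) :
    FormBd (fun x => D x * Complex.exp (Complex.I * ((a * x ^ 2 + b * x + c : ℝ) : ℂ)))
      A ε R c₁ c₂ c₃ := by
  have b12 : c₁ - c₂ ≠ 0 := sub_ne_zero.2 h12
  have b13 : c₁ - c₃ ≠ 0 := sub_ne_zero.2 h13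
  have b23 : c₂ - c₃ ≠ 0 := sub_ne_zero.2 h23
  have b21 : c₂ - c₁ ≠ 0 := sub_ne_zero.2 h12.symm
  have b31 : c₃ - c₁ ≠ 0 := sub_ne_zero.2 h13.symm
  have b32 : c₃ - c₂ ≠ 0 := sub_ne_zero.2 h23.symm
  set q : ℝ → ℝ := fun y => a * y ^ 2 + b * y + c with hq
  have mq : Measurable q := by
    rw [hq]; fun_prop
  set l₁ : ℝ := c₂ * c₃ / ((c₂ - c₁) * (c₃ - c₁)) with hl₁
  set l₂ : ℝ := c₁ * c₃ / ((c₁ - c₂) * (c₃ - c₂)) with hl₂
  set l₃ : ℝ := c₁ * c₂ / ((c₁ - c₃) * (c₂ - c₃)) with hl₃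
  have e0 : l₁ + l₂ + l₃ = 1 := by
    rw [hl₁, hl₂, hl₃]; field_simp; ring
  have e1 : l₁ * c₁ + l₂ * c₂ + l₃ * c₃ = 0 := by
    rw [hl₁, hl₂, hl₃]; field_simp; ring
  have e2 : l₁ * c₁ ^ 2 + l₂ * c₂ ^ 2 + l₃ * c₃ ^ 2 = 0 := by
    rw [hl₁, hl₂, hl₃]; field_simp; ring
  have key : ∀ x t : ℝ, q x = l₁ * q (x - c₁ * t) + l₂ * q (x - c₂ * t) + l₃ * q (x - c₃ * t) := by
    intro x t
    rw [hq]
    have : l₁ * (a * (x - c₁ * t) ^ 2 + b * (x - c₁ * t) + c) +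
        l₂ * (a * (x - c₂ * t) ^ 2 + b * (x - c₂ * t) + c) +
        l₃ * (a * (x - c₃ * t) ^ 2 + b * (x - c₃ * t) + c) =
        (l₁ + l₂ + l₃) * (a * x ^ 2 + b * x + c) -
        (l₁ * c₁ + l₂ * c₂ + l₃ * c₃) * (2 * a * x * t + b * t) +
        (l₁ * c₁ ^ 2 + l₂ * c₂ ^ 2 + l₃ * c₃ ^ 2) * (a * t ^ 2) := by ring
    show a * x ^ 2 + b * x + c = _
    rw [this, e0, e1, e2]
    ring
  intro f₁ f₂ f₃ h₁ h₂ h₃
  have hk := h _ _ _ (nice_ee h₁ (mq.const_mul l₁)) (nice_ee h₂ (mq.const_mul l₂))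
    (nice_ee h₃ (mq.const_mul l₃))
  rw [elp_ee, elp_ee, elp_ee] at hk
  refine le_trans (le_of_eq ?_) hk
  congr 2
  funext p
  unfold ph FF
  have e : Complex.exp (Complex.I * ((a * p.1 ^ 2 + b * p.1 + c : ℝ) : ℂ)) =
      ee (l₁ * q (p.1 - c₁ * p.2)) * ee (l₂ * q (p.1 - c₂ * p.2)) *
        ee (l₃ * q (p.1 - c₃ * p.2)) := by
    rw [← ee_add, ← ee_add, ← key p.1 p.2]
    rfl
  beta_reduce
  rw [e]
  ring

/-! ## Monotone functions -/

theorem pos_tendsto_one (x : ℝ) : Tendsto (fun n : ℕ => pos (-(n : ℝ)) x) atTop (𝓝 1) := by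
  apply tendsto_const_nhds.congr'
  obtain ⟨m, hm⟩ := exists_nat_gt (-x)
  filter_upwards [eventually_ge_atTop m] with n hn
  rw [pos_of_lt]
  have : (m : ℝ) ≤ n := by exact_mod_cast hn
  linarith

/-- the constant function `1` -/
theorem form_one (hε : 0 < ε) (h : ∀ s : ℝ, FormBd (pos s) A ε R c₁ c₂ c₃) :
    FormBd (fun _ => 1) A ε R c₁ c₂ c₃ := by
  intro f₁ f₂ f₃ h₁ h₂ h₃
  have hint := ph_integrable (R := R) (c₁ := c₁) (c₂ := c₂) (c₃ := c₃) hε h₁ h₂ h₃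
  have hlim : Tendsto (fun n : ℕ => ∫ p : ℝ × ℝ, pos (-(n : ℝ)) p.1 *
      ph ε R c₁ c₂ c₃ f₁ f₂ f₃ p.1 p.2) atTop
      (𝓝 (∫ p : ℝ × ℝ, 1 * ph ε R c₁ c₂ c₃ f₁ f₂ f₃ p.1 p.2)) := by
    refine tendsto_integral_of_dominated_convergence
      (fun p => ‖ph ε R c₁ c₂ c₃ f₁ f₂ f₃ p.1 p.2‖) (fun n => ?_) hint.norm (fun n => ?_) ?_
    · exact (((pos_meas _).comp measurable_fst).mul
        (ph_meas h₁.meas h₂.meas h₃.meas)).aestronglyMeasurable
    · refine ae_of_all _ fun p => ?_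
      rw [norm_mul]
      exact mul_le_of_le_one_left (norm_nonneg _) (pos_le _ _)
    · refine ae_of_all _ fun p => ?_
      exact (pos_tendsto_one p.1).mul_const _
  exact le_of_tendsto hlim.norm (Eventually.of_forall fun n => h _ f₁ f₂ f₃ h₁ h₂ h₃)

/-- the indicator of an upper set -/
theorem form_upper (hA : 0 ≤ A) (hε : 0 < ε) (h : ∀ s : ℝ, FormBd (pos s) A ε R c₁ c₂ c₃)
    {S : Set ℝ} (hS : ∀ x y : ℝ, x ∈ S → x ≤ y → y ∈ S) :
    FormBd (S.indicator 1) A ε R c₁ c₂ c₃ := by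
  intro f₁ f₂ f₃ h₁ h₂ h₃
  by_cases hb : BddBelow S
  · rcases S.eq_empty_or_nonempty with hne | hne
    · rw [hne]
      simp only [indicator_empty, zero_mul, integral_zero, norm_zero]
      positivity
    · have hs := h (sInf S) f₁ f₂ f₃ h₁ h₂ h₃
      refine le_trans (le_of_eq ?_) hs
      congr 1
      refine integral_congr_ae ?_
      have h0 : ∀ᵐ x : ℝ, x ≠ sInf S := by
        have : ∀ᵐ x : ℝ, x ∉ ({sInf S} : Set ℝ) :=
          measure_eq_zero_iff_ae_notMem.1 ((finite_singleton (sInf S)).measure_zero _)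
        exact this.mono fun t ht h => ht (by simp [h])
      have h0' : ∀ᵐ p : ℝ × ℝ, p.1 ≠ sInf S := by
        rw [Measure.volume_eq_prod]
        exact Measure.quasiMeasurePreserving_fst.ae h0
      filter_upwards [h0'] with p hp
      have e : S.indicator (1 : ℝ → ℂ) p.1 = pos (sInf S) p.1 := by
        rcases lt_or_gt_of_ne hp with hlt | hgt
        · have hn : p.1 ∉ S := fun hm => absurd (csInf_le hb hm) (not_le.2 hlt)
          rw [indicator_of_notMem hn, pos_of_le hlt.le]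
        · obtain ⟨y, hy, hy'⟩ := exists_lt_of_csInf_lt hne hgt
          rw [indicator_of_mem (hS y p.1 hy hy'.le), pos_of_lt hgt]
          rfl
      show S.indicator 1 p.1 * _ = pos (sInf S) p.1 * _
      rw [e]
  · have hall : S = univ := by
      refine eq_univ_of_forall fun x => ?_
      by_contra hx
      apply hb
      refine ⟨x, fun y hy => ?_⟩
      by_contra hlt
      exact hx (hS y x hy (not_le.1 hlt).le)
    rw [hall]
    have h1 := form_one hε h f₁ f₂ f₃ h₁ h₂ h₃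
    refine le_trans (le_of_eq ?_) h1
    congr 2
    funext p
    simp

/-- counting the levels below `v` -/
theorem count_levels {N : ℕ} (hN : 0 < N) {v : ℝ} (h0 : 0 ≤ v) (h2 : v ≤ 2) :
    |v - (N : ℝ)⁻¹ * ∑ k ∈ Finset.range (2 * N), (if (k : ℝ) / N < v then (1 : ℝ) else 0)| ≤
      (N : ℝ)⁻¹ := by
  have hNr : (0 : ℝ) < N := by exact_mod_cast hN
  have hf : (Finset.range (2 * N)).filter (fun k : ℕ => (k : ℝ) / N < v) =
      Finset.range ⌈(N : ℝ) * v⌉₊ := by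
    ext k
    simp only [Finset.mem_filter, Finset.mem_range]
    have e : (k : ℝ) / N < v ↔ k < ⌈(N : ℝ) * v⌉₊ := by
      rw [Nat.lt_ceil, div_lt_iff₀ hNr, mul_comm v]
    rw [e]
    constructor
    · exact fun h => h.2
    · intro h
      refine ⟨h.trans_le ?_, h⟩
      rw [Nat.ceil_le]
      push_cast
      nlinarith
  rw [Finset.sum_ite, Finset.sum_const_zero, add_zero, Finset.sum_const, hf, Finset.card_range,
    nsmul_eq_mul, mul_one]
  have hc1 : (N : ℝ) * v ≤ ⌈(N : ℝ) * v⌉₊ := Nat.le_ceil _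
  have hc2 : (⌈(N : ℝ) * v⌉₊ : ℝ) < (N : ℝ) * v + 1 := Nat.ceil_lt_add_one (by positivity)
  have e : v - (N : ℝ)⁻¹ * (⌈(N : ℝ) * v⌉₊ : ℝ) =
      (N : ℝ)⁻¹ * ((N : ℝ) * v - (⌈(N : ℝ) * v⌉₊ : ℝ)) := by
    rw [mul_sub, ← mul_assoc, inv_mul_cancel₀ hNr.ne', one_mul]
  rw [e, abs_mul, abs_of_pos (inv_pos.2 hNr)]
  refine mul_le_of_le_one_right (inv_pos.2 hNr).le ?_
  rw [abs_le]
  constructor <;> linarith

/-- **Monotone functions** -/
theorem mono_form (hA : 0 ≤ A) (hε : 0 < ε) (h : ∀ s : ℝ, FormBd (pos s) A ε R c₁ c₂ c₃)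
    {u : ℝ → ℝ} (hu : Monotone u) (hb : ∀ x, |u x| ≤ 1) :
    FormBd (fun x => ((u x : ℝ) : ℂ)) (3 * A) ε R c₁ c₂ c₃ := by
  intro f₁ f₂ f₃ h₁ h₂ h₃
  set X : ℝ := (eLpNorm f₁ 3 volume).toReal * (eLpNorm f₂ 3 volume).toReal *
    (eLpNorm f₃ 3 volume).toReal with hX
  have hX0 : 0 ≤ X := by positivity
  set F : ℝ × ℝ → ℂ := fun p => ph ε R c₁ c₂ c₃ f₁ f₂ f₃ p.1 p.2 with hF
  have hFi : Integrable F volume :=
    ph_integrable (R := R) (c₁ := c₁) (c₂ := c₂) (c₃ := c₃) hε h₁ h₂ h₃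
  have hum : Measurable fun x => ((u x : ℝ) : ℂ) := Complex.measurable_ofReal.comp hu.measurable
  have hu1 : ∀ x, ‖((u x : ℝ) : ℂ)‖ ≤ 1 := fun x => by
    rw [Complex.norm_real, Real.norm_eq_abs]; exact hb x
  have hui : Integrable (fun p : ℝ × ℝ => ((u p.1 : ℝ) : ℂ) * F p) volume :=
    Dph_int hum hu1 hε h₁ h₂ h₃
  have b1 : ‖∫ p, F p‖ ≤ A * X := by
    have := form_one hε h f₁ f₂ f₃ h₁ h₂ h₃
    simpa only [one_mul] using this
  have main : ∀ N : ℕ, 0 < N →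
      ‖∫ p : ℝ × ℝ, ((u p.1 : ℝ) : ℂ) * F p‖ ≤ 3 * A * X + (N : ℝ)⁻¹ * ∫ p, ‖F p‖ := by
    intro N hN
    have hNr : (0 : ℝ) < N := by exact_mod_cast hN
    set S : ℕ → Set ℝ := fun k => {x : ℝ | (k : ℝ) / N < u x + 1} with hSdef
    have hSm : ∀ k, MeasurableSet (S k) := fun k =>
      measurableSet_lt measurable_const (hu.measurable.add_const 1)
    have hSu : ∀ k, ∀ x y : ℝ, x ∈ S k → x ≤ y → y ∈ S k := by
      intro k x y hx hxy
      have h1 : (k : ℝ) / N < u x + 1 := hx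
      have h2 := hu hxy
      show (k : ℝ) / N < u y + 1
      linarith
    have hIm : ∀ k, Measurable ((S k).indicator (1 : ℝ → ℂ)) := fun k =>
      measurable_one.indicator (hSm k)
    have hI1 : ∀ k x, ‖(S k).indicator (1 : ℝ → ℂ) x‖ ≤ 1 := by
      intro k x
      by_cases hx : x ∈ S k
      · rw [indicator_of_mem hx]; simp
      · rw [indicator_of_notMem hx]; simp
    have hIi : ∀ k, Integrable (fun p : ℝ × ℝ => (S k).indicator (1 : ℝ → ℂ) p.1 * F p) volume :=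
      fun k => Dph_int (hIm k) (hI1 k) hε h₁ h₂ h₃
    have bk' : ∀ k, ‖∫ p : ℝ × ℝ, (S k).indicator (1 : ℝ → ℂ) p.1 * F p‖ ≤ A * X := fun k =>
      form_upper hA hε h (hSu k) f₁ f₂ f₃ h₁ h₂ h₃
    have hsum : Integrable (fun p : ℝ × ℝ =>
        ∑ k ∈ Finset.range (2 * N), (S k).indicator (1 : ℝ → ℂ) p.1 * F p) volume :=
      integrable_finsetSum _ fun k _ => hIi k
    have hNc : Integrable (fun p : ℝ × ℝ => ((N : ℝ)⁻¹ : ℂ) *
        ∑ k ∈ Finset.range (2 * N), (S k).indicator (1 : ℝ → ℂ) p.1 * F p) volume :=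
      hsum.const_mul _
    have herr : ∀ p : ℝ × ℝ, ‖((u p.1 : ℝ) : ℂ) * F p + F p - ((N : ℝ)⁻¹ : ℂ) *
        ∑ k ∈ Finset.range (2 * N), (S k).indicator (1 : ℝ → ℂ) p.1 * F p‖ ≤
        (N : ℝ)⁻¹ * ‖F p‖ := by
      intro p
      have e1 : ∀ k, (S k).indicator (1 : ℝ → ℂ) p.1 =
          (((if (k : ℝ) / N < u p.1 + 1 then (1 : ℝ) else 0) : ℝ) : ℂ) := by
        intro k
        by_cases hx : (k : ℝ) / N < u p.1 + 1
        · rw [indicator_of_mem (show p.1 ∈ S k from hx), if_pos hx]; simp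
        · rw [indicator_of_notMem (show p.1 ∉ S k from hx), if_neg hx]; simp
      have e2 : ((u p.1 : ℝ) : ℂ) * F p + F p - ((N : ℝ)⁻¹ : ℂ) *
          ∑ k ∈ Finset.range (2 * N), (S k).indicator (1 : ℝ → ℂ) p.1 * F p =
          (((u p.1 + 1) - (N : ℝ)⁻¹ * ∑ k ∈ Finset.range (2 * N),
            (if (k : ℝ) / N < u p.1 + 1 then (1 : ℝ) else 0) : ℝ) : ℂ) * F p := by
        simp only [e1]
        rw [← Finset.sum_mul]
        push_cast
        ring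
      rw [e2, norm_mul, Complex.norm_real, Real.norm_eq_abs]
      have hb' := abs_le.1 (hb p.1)
      exact mul_le_mul_of_nonneg_right
        (count_levels hN (by linarith) (by linarith)) (norm_nonneg _)
    have hadd : Integrable (fun p : ℝ × ℝ => ((u p.1 : ℝ) : ℂ) * F p + F p) volume :=
      hui.add hFi
    have i3 : Integrable (fun p : ℝ × ℝ => ((u p.1 : ℝ) : ℂ) * F p + F p - ((N : ℝ)⁻¹ : ℂ) *
        ∑ k ∈ Finset.range (2 * N), (S k).indicator (1 : ℝ → ℂ) p.1 * F p) volume :=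
      hadd.sub hNc
    have eqn : ∫ p : ℝ × ℝ, ((u p.1 : ℝ) : ℂ) * F p =
        (∫ p : ℝ × ℝ, (((u p.1 : ℝ) : ℂ) * F p + F p - ((N : ℝ)⁻¹ : ℂ) *
          ∑ k ∈ Finset.range (2 * N), (S k).indicator (1 : ℝ → ℂ) p.1 * F p)) -
        (∫ p, F p) + ((N : ℝ)⁻¹ : ℂ) *
          ∑ k ∈ Finset.range (2 * N), ∫ p : ℝ × ℝ, (S k).indicator (1 : ℝ → ℂ) p.1 * F p := by
      rw [integral_sub hadd hNc, integral_add hui hFi, integral_const_mul,
        integral_finsetSum _ fun k _ => hIi k]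
      ring
    rw [eqn]
    have n1 : ‖∫ p : ℝ × ℝ, (((u p.1 : ℝ) : ℂ) * F p + F p - ((N : ℝ)⁻¹ : ℂ) *
        ∑ k ∈ Finset.range (2 * N), (S k).indicator (1 : ℝ → ℂ) p.1 * F p)‖ ≤
        (N : ℝ)⁻¹ * ∫ p, ‖F p‖ := by
      rw [← integral_const_mul]
      exact norm_integral_le_of_norm_le (hFi.norm.const_mul _) (ae_of_all _ herr)
    have n2 : ‖((N : ℝ)⁻¹ : ℂ) *
        ∑ k ∈ Finset.range (2 * N), ∫ p : ℝ × ℝ, (S k).indicator (1 : ℝ → ℂ) p.1 * F p‖ ≤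
        2 * A * X := by
      rw [norm_mul]
      have hs : ‖∑ k ∈ Finset.range (2 * N),
          ∫ p : ℝ × ℝ, (S k).indicator (1 : ℝ → ℂ) p.1 * F p‖ ≤ (2 * N : ℕ) * (A * X) := by
        refine (norm_sum_le _ _).trans ((Finset.sum_le_sum fun k _ => bk' k).trans (le_of_eq ?_))
        rw [Finset.sum_const, Finset.card_range, nsmul_eq_mul]
      have hn : ‖((N : ℝ)⁻¹ : ℂ)‖ = (N : ℝ)⁻¹ := by
        rw [norm_inv]; simp
      rw [hn]
      calc (N : ℝ)⁻¹ * ‖∑ k ∈ Finset.range (2 * N),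
            ∫ p : ℝ × ℝ, (S k).indicator (1 : ℝ → ℂ) p.1 * F p‖
          ≤ (N : ℝ)⁻¹ * ((2 * N : ℕ) * (A * X)) := by gcongr
        _ = ((N : ℝ)⁻¹ * N) * (2 * A * X) := by push_cast; ring
        _ = 2 * A * X := by rw [inv_mul_cancel₀ hNr.ne', one_mul]
    refine (norm_add_le _ _).trans ?_
    refine (add_le_add (norm_sub_le _ _) le_rfl).trans ?_
    linarith
  -- let `N` tend to infinity
  have hlim : Tendsto (fun N : ℕ => 3 * A * X + (N : ℝ)⁻¹ * ∫ p, ‖F p‖) atTop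
      (𝓝 (3 * A * X + 0 * ∫ p, ‖F p‖)) :=
    tendsto_const_nhds.add ((tendsto_inv_atTop_zero.comp tendsto_natCast_atTop_atTop).mul_const _)
  rw [zero_mul, add_zero] at hlim
  exact ge_of_tendsto hlim ((eventually_gt_atTop 0).mono main)

theorem neg_form {D : ℝ → ℂ} (h : FormBd D A ε R c₁ c₂ c₃) :
    FormBd (fun x => - D x) A ε R c₁ c₂ c₃ := by
  intro f₁ f₂ f₃ h₁ h₂ h₃
  refine le_trans (le_of_eq ?_) (h f₁ f₂ f₃ h₁ h₂ h₃)
  rw [← norm_neg, ← integral_neg]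
  congr 2
  funext p
  ring

/-- **Monotone functions of either kind, all truncations** -/
theorem mono (h12 : c₁ ≠ c₂) (h13 : c₁ ≠ c₃) (h23 : c₂ ≠ c₃) :
    ∃ A : ℝ, 0 ≤ A ∧ ∀ u : ℝ → ℝ, (Monotone u ∨ Antitone u) → (∀ x, |u x| ≤ 1) →
      ∀ ε R : ℝ, 0 < ε → ε < R → FormBd (fun x => ((u x : ℝ) : ℂ)) A ε R c₁ c₂ c₃ := by
  obtain ⟨A, hA0, hA⟩ := half h12 h13 h23
  refine ⟨3 * A, by positivity, fun u hu hb ε R hε hR => ?_⟩
  rcases hu with hu | hu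
  · exact mono_form hA0 hε (fun s => hA s ε R hε hR) hu hb
  · have h := neg_form (mono_form hA0 hε (fun s => hA s ε R hε hR) hu.neg
      (fun x => by show |-u x| ≤ 1; rw [abs_neg]; exact hb x))
    refine fun f₁ f₂ f₃ h₁ h₂ h₃ => le_trans (le_of_eq ?_) (h f₁ f₂ f₃ h₁ h₂ h₃)
    congr 2
    funext p
    simp

end Vale.Agent.P141.R2.H864
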