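import Vale.Agent.P141.R2.H864.Reg
import Vale.Agent.P141.R2.H131.FormPieces

/-!
# The form bound for functions whose level sets have few components
-/

namespace Vale.Agent.P141.R2.H864

open MeasureTheory Set Filter Topology Vale.Agent.P141.H97
open Vale.Agent.P141.R2.H152 (FormBd Dph_int ph_integrable)
open Vale.Agent.P141.R2.H4 (pos half)
open scoped ENNReal

variable {ε R c₁ c₂ c₃ A : ℝ}

/-! ## Alternating chains -/

/-- `Ch S n x`: there are points `y₁ < … < y_n ≤ x`, alternately in `S` and outside, `y₁ ∈ S` -/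
def Ch (S : Set ℝ) : ℕ → ℝ → Prop
  | 0, _ => True
  | n + 1, x => ∃ y, y ≤ x ∧ (y ∈ S ↔ Odd (n + 1)) ∧ Ch S n y

theorem Ch.up {S : Set ℝ} {n : ℕ} {x x' : ℝ} (h : Ch S n x) (hx : x ≤ x') : Ch S n x' := by
  cases n with
  | zero => trivial
  | succ n =>
    obtain ⟨y, hy, h1, h2⟩ := h
    exact ⟨y, hy.trans hx, h1, h2⟩

theorem Ch.pred {S : Set ℝ} {n : ℕ} {x : ℝ} (h : Ch S (n + 1) x) : Ch S n x := by
  obtain ⟨y, hy, _, h2⟩ := h
  exact h2.up hy

theorem Ch.down {S : Set ℝ} {m n : ℕ} (hmn : m ≤ n) {x : ℝ} (h : Ch S n x) : Ch S m x := by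
  induction n, hmn using Nat.le_induction with
  | base => exact h
  | succ n _ ih => exact ih h.pred

theorem ch_bound {ι : Type} [DecidableEq ι] {I : ι → Set ℝ} (hI : ∀ i, (I i).OrdConnected)
    {S : Set ℝ} (hS : ∀ i, I i ⊆ S) (k : ℕ) :
    ∀ (T : Finset ι), T.card ≤ k → ∀ (x : ℝ) (n : ℕ),
      (∀ y ∈ S, y ≤ x → ∃ i ∈ T, y ∈ I i) → Ch S n x → n ≤ 2 * k := by
  induction k with
  | zero =>
    intro T hT x n hcov hn
    by_contra hlt
    have h1 : Ch S 1 x := hn.down (by omega)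
    obtain ⟨y, hy, h2, _⟩ := h1
    obtain ⟨i, hi, _⟩ := hcov y (h2.2 odd_one) hy
    rw [Finset.card_eq_zero.1 (Nat.le_zero.1 hT)] at hi
    exact absurd hi (Finset.notMem_empty i)
  | succ k ih =>
    intro T hT x n hcov hn
    by_contra hlt
    have h1 : Ch S (2 * k + 2 + 1) x := hn.down (by omega)
    obtain ⟨y₁, hy₁, h2, h3⟩ := h1
    obtain ⟨y₂, hy₂, h4, h5⟩ := (show Ch S (2 * k + 1 + 1) y₁ from h3)
    have m₁ : y₁ ∈ S := h2.2 ⟨k + 1, by ring⟩
    have m₂ : y₂ ∉ S := fun h => by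
      have := h4.1 h
      rw [Nat.odd_iff] at this
      omega
    obtain ⟨i, hi, hyi⟩ := hcov y₁ m₁ hy₁
    have hle := ih (T.erase i) (by rw [Finset.card_erase_of_mem hi]; omega) y₂ (2 * k + 1)
      (by
        intro y hy hyy
        obtain ⟨j, hj, hyj⟩ := hcov y hy (hyy.trans (hy₂.trans hy₁))
        refine ⟨j, Finset.mem_erase.2 ⟨?_, hj⟩, hyj⟩
        rintro rfl
        exact m₂ (hS j ((hI j).out hyj hyi ⟨hyy, hy₂⟩))) h5
    omega

open Classical in
/-- the length of the longest alternating chain up to `x` -/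
noncomputable def cnt (S : Set ℝ) (k : ℕ) (x : ℝ) : ℕ := Nat.findGreatest (fun n => Ch S n x) (2 * k)

theorem cnt_mono (S : Set ℝ) (k : ℕ) : Monotone (cnt S k) := by
  classical
  intro x x' hx
  exact Nat.findGreatest_mono_left (fun n hn => Ch.up hn hx) _

theorem cnt_le (S : Set ℝ) (k : ℕ) (x : ℝ) : cnt S k x ≤ 2 * k := by
  classical
  exact Nat.findGreatest_le _

/-- a union of `k` intervals is the set where a monotone function with values `≤ 2k` is odd -/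
theorem cnt_odd {k : ℕ} {I : Fin k → Set ℝ} (hI : ∀ i, (I i).OrdConnected) {S : Set ℝ}
    (hS : S = ⋃ i, I i) (x : ℝ) : x ∈ S ↔ Odd (cnt S k x) := by
  classical
  set n := cnt S k x with hn
  have hb : ∀ m, Ch S m x → m ≤ 2 * k := by
    intro m hm
    refine ch_bound hI (S := S) (fun i => by rw [hS]; exact subset_iUnion I i) k Finset.univ
      (by simp) x m (fun y hy _ => ?_) hm
    rw [hS] at hy
    obtain ⟨i, hi⟩ := mem_iUnion.1 hy
    exact ⟨i, Finset.mem_univ i, hi⟩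
  have h1 : Ch S n x :=
    Nat.findGreatest_spec (P := fun n => Ch S n x) (m := 0) (Nat.zero_le _) trivial
  have h2 : ¬ Ch S (n + 1) x := by
    intro h
    have hle := hb _ h
    exact Nat.findGreatest_is_greatest (P := fun n => Ch S n x) (n := 2 * k) (k := n + 1)
      (Nat.lt_succ_self n) hle h
  constructor
  · intro hx
    by_contra ho
    apply h2
    refine ⟨x, le_rfl, ⟨fun _ => ?_, fun _ => hx⟩, h1⟩
    rw [Nat.not_odd_iff_even] at ho
    exact ho.add_one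
  · intro ho
    by_contra hx
    apply h2
    refine ⟨x, le_rfl, ⟨fun h => absurd h hx, fun h => ?_⟩, h1⟩
    exfalso
    rw [Nat.odd_iff] at ho h
    omega

/-! ## Integration over the levels -/

theorem level_form {A₁ A₂ : ℝ} (hε : 0 < ε) (h1 : FormBd (fun _ => 1) A₁ ε R c₁ c₂ c₃)
    {u : ℝ → ℝ} (hu : Measurable u) (hb : ∀ x, |u x| ≤ 1)
    (hl : ∀ l : ℝ, FormBd ({x : ℝ | l < u x}.indicator 1) A₂ ε R c₁ c₂ c₃) :
    FormBd (fun x => ((u x : ℝ) : ℂ)) (A₁ + 2 * A₂) ε R c₁ c₂ c₃ := by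
  intro f₁ f₂ f₃ h₁ h₂ h₃
  set X : ℝ := (eLpNorm f₁ 3 volume).toReal * (eLpNorm f₂ 3 volume).toReal *
    (eLpNorm f₃ 3 volume).toReal with hX
  set F : ℝ × ℝ → ℂ := fun p => ph ε R c₁ c₂ c₃ f₁ f₂ f₃ p.1 p.2 with hF
  have hFi : Integrable F volume :=
    ph_integrable (R := R) (c₁ := c₁) (c₂ := c₂) (c₃ := c₃) hε h₁ h₂ h₃
  have hum : Measurable fun x => ((u x : ℝ) : ℂ) := Complex.measurable_ofReal.comp hu
  have hu1 : ∀ x, ‖((u x : ℝ) : ℂ)‖ ≤ 1 := fun x => by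
    rw [Complex.norm_real, Real.norm_eq_abs]; exact hb x
  have hui : Integrable (fun p : ℝ × ℝ => ((u p.1 : ℝ) : ℂ) * F p) volume :=
    Dph_int hum hu1 hε h₁ h₂ h₃
  have b1 : ‖∫ p, F p‖ ≤ A₁ * X := by
    have := h1 f₁ f₂ f₃ h₁ h₂ h₃
    simpa only [one_mul] using this
  have main : ∀ N : ℕ, 0 < N →
      ‖∫ p : ℝ × ℝ, ((u p.1 : ℝ) : ℂ) * F p‖ ≤ (A₁ + 2 * A₂) * X + (N : ℝ)⁻¹ * ∫ p, ‖F p‖ := by
    intro N hN
    have hNr : (0 : ℝ) < N := by exact_mod_cast hN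
    set S : ℕ → Set ℝ := fun k => {x : ℝ | (k : ℝ) / N - 1 < u x} with hSdef
    have hSm : ∀ k, MeasurableSet (S k) := fun k => measurableSet_lt measurable_const hu
    have hIm : ∀ k, Measurable ((S k).indicator (1 : ℝ → ℂ)) := fun k =>
      measurable_one.indicator (hSm k)
    have hI1 : ∀ k x, ‖(S k).indicator (1 : ℝ → ℂ) x‖ ≤ 1 := by
      intro k x
      by_cases hx : x ∈ S k
      · rw [indicator_of_mem hx]; simp
      · rw [indicator_of_notMem hx]; simp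
    have hIi : ∀ k, Integrable (fun p : ℝ × ℝ => (S k).indicator (1 : ℝ → ℂ) p.1 * F p) volume :=
      fun k => Dph_int (hIm k) (hI1 k) hε h₁ h₂ h₃
    have bk' : ∀ k, ‖∫ p : ℝ × ℝ, (S k).indicator (1 : ℝ → ℂ) p.1 * F p‖ ≤ A₂ * X := fun k =>
      hl _ f₁ f₂ f₃ h₁ h₂ h₃
    have hsum : Integrable (fun p : ℝ × ℝ =>
        ∑ k ∈ Finset.range (2 * N), (S k).indicator (1 : ℝ → ℂ) p.1 * F p) volume :=
      integrable_finsetSum _ fun k _ => hIi k
    have hNc : Integrable (fun p : ℝ × ℝ => ((N : ℝ)⁻¹ : ℂ) *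
        ∑ k ∈ Finset.range (2 * N), (S k).indicator (1 : ℝ → ℂ) p.1 * F p) volume :=
      hsum.const_mul _
    have herr : ∀ p : ℝ × ℝ, ‖((u p.1 : ℝ) : ℂ) * F p + F p - ((N : ℝ)⁻¹ : ℂ) *
        ∑ k ∈ Finset.range (2 * N), (S k).indicator (1 : ℝ → ℂ) p.1 * F p‖ ≤
        (N : ℝ)⁻¹ * ‖F p‖ := by
      intro p
      have e1 : ∀ k, (S k).indicator (1 : ℝ → ℂ) p.1 =
          (((if (k : ℝ) / N < u p.1 + 1 then (1 : ℝ) else 0) : ℝ) : ℂ) := by
        intro k
        by_cases hx : (k : ℝ) / N < u p.1 + 1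
        · rw [indicator_of_mem (show p.1 ∈ S k from by
            show (k : ℝ) / N - 1 < u p.1; linarith), if_pos hx]; simp
        · rw [indicator_of_notMem (show p.1 ∉ S k from fun h => hx (by
            have : (k : ℝ) / N - 1 < u p.1 := h
            linarith)), if_neg hx]; simp
      have e2 : ((u p.1 : ℝ) : ℂ) * F p + F p - ((N : ℝ)⁻¹ : ℂ) *
          ∑ k ∈ Finset.range (2 * N), (S k).indicator (1 : ℝ → ℂ) p.1 * F p =
          (((u p.1 + 1) - (N : ℝ)⁻¹ * ∑ k ∈ Finset.range (2 * N),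
            (if (k : ℝ) / N < u p.1 + 1 then (1 : ℝ) else 0) : ℝ) : ℂ) * F p := by
        simp only [e1]
        rw [← Finset.sum_mul]
        push_cast
        ring
      rw [e2, norm_mul, Complex.norm_real, Real.norm_eq_abs]
      have hb' := abs_le.1 (hb p.1)
      exact mul_le_mul_of_nonneg_right
        (count_levels hN (by linarith) (by linarith)) (norm_nonneg _)
    have hadd : Integrable (fun p : ℝ × ℝ => ((u p.1 : ℝ) : ℂ) * F p + F p) volume :=
      hui.add hFi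
    have eqn : ∫ p : ℝ × ℝ, ((u p.1 : ℝ) : ℂ) * F p =
        (∫ p : ℝ × ℝ, (((u p.1 : ℝ) : ℂ) * F p + F p - ((N : ℝ)⁻¹ : ℂ) *
          ∑ k ∈ Finset.range (2 * N), (S k).indicator (1 : ℝ → ℂ) p.1 * F p)) -
        (∫ p, F p) + ((N : ℝ)⁻¹ : ℂ) *
          ∑ k ∈ Finset.range (2 * N), ∫ p : ℝ × ℝ, (S k).indicator (1 : ℝ → ℂ) p.1 * F p := by
      rw [integral_sub hadd hNc, integral_add hui hFi, integral_const_mul,
        integral_finsetSum _ fun k _ => hIi k]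
      ring
    rw [eqn]
    have n1 : ‖∫ p : ℝ × ℝ, (((u p.1 : ℝ) : ℂ) * F p + F p - ((N : ℝ)⁻¹ : ℂ) *
        ∑ k ∈ Finset.range (2 * N), (S k).indicator (1 : ℝ → ℂ) p.1 * F p)‖ ≤
        (N : ℝ)⁻¹ * ∫ p, ‖F p‖ := by
      rw [← integral_const_mul]
      exact norm_integral_le_of_norm_le (hFi.norm.const_mul _) (ae_of_all _ herr)
    have n2 : ‖((N : ℝ)⁻¹ : ℂ) *
        ∑ k ∈ Finset.range (2 * N), ∫ p : ℝ × ℝ, (S k).indicator (1 : ℝ → ℂ) p.1 * F p‖ ≤
        2 * A₂ * X := by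
      rw [norm_mul]
      have hs : ‖∑ k ∈ Finset.range (2 * N),
          ∫ p : ℝ × ℝ, (S k).indicator (1 : ℝ → ℂ) p.1 * F p‖ ≤ (2 * N : ℕ) * (A₂ * X) := by
        refine (norm_sum_le _ _).trans ((Finset.sum_le_sum fun k _ => bk' k).trans (le_of_eq ?_))
        rw [Finset.sum_const, Finset.card_range, nsmul_eq_mul]
      have hn : ‖((N : ℝ)⁻¹ : ℂ)‖ = (N : ℝ)⁻¹ := by
        rw [norm_inv]; simp
      rw [hn]
      calc (N : ℝ)⁻¹ * ‖∑ k ∈ Finset.range (2 * N),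
            ∫ p : ℝ × ℝ, (S k).indicator (1 : ℝ → ℂ) p.1 * F p‖
          ≤ (N : ℝ)⁻¹ * ((2 * N : ℕ) * (A₂ * X)) := by gcongr
        _ = ((N : ℝ)⁻¹ * N) * (2 * A₂ * X) := by push_cast; ring
        _ = 2 * A₂ * X := by rw [inv_mul_cancel₀ hNr.ne', one_mul]
    refine (norm_add_le _ _).trans ?_
    refine (add_le_add (norm_sub_le _ _) le_rfl).trans ?_
    linarith
  have hlim : Tendsto (fun N : ℕ => (A₁ + 2 * A₂) * X + (N : ℝ)⁻¹ * ∫ p, ‖F p‖) atTop
      (𝓝 ((A₁ + 2 * A₂) * X + 0 * ∫ p, ‖F p‖)) :=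
    tendsto_const_nhds.add ((tendsto_inv_atTop_zero.comp tendsto_natCast_atTop_atTop).mul_const _)
  rw [zero_mul, add_zero] at hlim
  exact ge_of_tendsto hlim ((eventually_gt_atTop 0).mono main)

/-- **Real functions whose level sets are unions of at most `K` intervals** -/
theorem level (h12 : c₁ ≠ c₂) (h13 : c₁ ≠ c₃) (h23 : c₂ ≠ c₃) :
    ∃ C : ℝ, 0 ≤ C ∧ ∀ (K : ℕ) (u : ℝ → ℝ), 1 ≤ K → (∀ x, |u x| ≤ 1) →
      (∀ l : ℝ, ∃ I : Fin K → Set ℝ, (∀ i, (I i).OrdConnected) ∧ {x : ℝ | l < u x} = ⋃ i, I i) →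
      ∀ ε R : ℝ, 0 < ε → ε < R →
        FormBd (fun x => ((u x : ℝ) : ℂ)) (C * (1 + Real.log K)) ε R c₁ c₂ c₃ := by
  obtain ⟨A, hA0, hA⟩ := half h12 h13 h23
  obtain ⟨B, hB0, hB⟩ := Vale.Agent.P141.R2.H131.pieces h12 h13 h23
  refine ⟨3 * A + 4 * B, by positivity, fun K u hK hb hl ε R hε hR => ?_⟩
  have hum : Measurable u := by
    refine measurable_of_Ioi fun l => ?_
    obtain ⟨I, hI, e⟩ := hl l
    have e' : u ⁻¹' Ioi l = ⋃ i, I i := e
    rw [e']
    exact MeasurableSet.iUnion fun i => (hI i).measurableSet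
  have h1 : FormBd (fun _ => 1) A ε R c₁ c₂ c₃ := form_one hε fun s => hA s ε R hε hR
  have h0 : FormBd (fun _ => 0) A ε R c₁ c₂ c₃ := by
    intro f₁ f₂ f₃ _ _ _
    simp only [zero_mul, integral_zero, norm_zero]
    positivity
  set n : ℕ := Nat.log 2 (2 * K) + 1 with hn
  have hlt : 2 * K < 2 ^ n := Nat.lt_pow_succ_log_self (by norm_num) _
  have hlev : ∀ l : ℝ, FormBd ({x : ℝ | l < u x}.indicator 1) (A + B * n) ε R c₁ c₂ c₃ := by
    intro l
    obtain ⟨I, hI, e⟩ := hl l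
    have key := hB A ε R hA0 hε hR n (cnt {x : ℝ | l < u x} K)
      (fun k _ => if Odd k then 1 else 0) (cnt_mono _ _)
      (fun x => (cnt_le _ _ x).trans_lt hlt) (fun k => measurable_const)
      (fun k x => by split_ifs <;> simp) (fun k => by
        by_cases hk : Odd k
        · simp only [if_pos hk]; exact h1
        · simp only [if_neg hk]; exact h0)
    have e' : ({x : ℝ | l < u x}.indicator (1 : ℝ → ℂ)) =
        fun x => if Odd (cnt {x : ℝ | l < u x} K x) then 1 else 0 := by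
      funext x
      by_cases hx : x ∈ {x : ℝ | l < u x}
      · rw [indicator_of_mem hx, if_pos ((cnt_odd hI e x).1 hx)]; rfl
      · rw [indicator_of_notMem hx, if_neg fun h => hx ((cnt_odd hI e x).2 h)]
    rw [e']
    exact key
  have hfin := level_form hε h1 hum hb hlev
  intro f₁ f₂ f₃ n₁ n₂ n₃
  refine (hfin f₁ f₂ f₃ n₁ n₂ n₃).trans ?_
  apply mul_le_mul_of_nonneg_right _ (by positivity)
  have hKr : (1 : ℝ) ≤ K := by exact_mod_cast hK
  have hlogK : 0 ≤ Real.log K := Real.log_nonneg hKr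
  have hl2 : 0.6931471803 < Real.log 2 := Real.log_two_gt_d9
  have hnr : (n : ℝ) * Real.log 2 ≤ 2 * Real.log 2 + Real.log K := by
    have hp : (2 : ℝ) ^ Nat.log 2 (2 * K) ≤ 2 * K := by
      exact_mod_cast Nat.pow_log_le_self 2 (by omega : 2 * K ≠ 0)
    have h3 := Real.log_le_log (by positivity) hp
    rw [Real.log_pow, Real.log_mul (by norm_num) (by positivity)] at h3
    rw [hn]
    push_cast
    linarith
  have hn2 : (n : ℝ) ≤ 2 + 2 * Real.log K := by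
    by_contra hcon
    push Not at hcon
    have : (2 + 2 * Real.log K) * Real.log 2 < n * Real.log 2 :=
      mul_lt_mul_of_pos_right hcon (by linarith)
    nlinarith
  nlinarith [mul_nonneg hB0 hlogK, mul_nonneg hA0 hlogK, mul_le_mul_of_nonneg_left hn2 hB0]

end Vale.Agent.P141.R2.H864
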